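import Mathlib.Analysis.InnerProductSpace.PiL2
import Mathlib.Analysis.Calculus.FDeriv.Comp
import Mathlib.Analysis.Complex.Basic

/-!
# Adapted Hermitian norms for nilpotent linear maps
-/

open Set Filter
open scoped Topology

noncomputable section

namespace Vale.Agent.P267.H615

/-- `ℂ²` with the Euclidean norm. -/
abbrev E2 := EuclideanSpace ℂ (Fin 2)

section Nilp

variable {V : Type*} [NormedAddCommGroup V] [NormedSpace ℂ V] [FiniteDimensional ℂ V]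

/-- A nilpotent endomorphism of a two-dimensional space is a contraction for some Euclidean norm. -/
theorem exists_adapted (hV : Module.finrank ℂ V = 2) (L : V →L[ℂ] V) {K : ℕ} (hL : L ^ K = 0) :
    ∃ A : V ≃L[ℂ] E2, ∀ x, ‖A (L x)‖ ≤ 1 / 2 * ‖A x‖ := by
  classical
  -- a Euclidean norm on `V`
  have e : V ≃L[ℂ] E2 :=
    (LinearEquiv.ofFinrankEq V E2 (by rw [hV]; simp)).toContinuousLinearEquiv
  -- the map `x ↦ (2^j L^j x)_j`
  let T : V →ₗ[ℂ] PiLp 2 (fun _ : Fin (K + 1) => E2) :=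
    (WithLp.linearEquiv 2 ℂ (∀ _ : Fin (K + 1), E2)).symm.toLinearMap ∘ₗ
      LinearMap.pi fun j => ((2 : ℂ) ^ (j : ℕ)) • ((e : V →ₗ[ℂ] E2) ∘ₗ ((L ^ (j : ℕ) : V →L[ℂ] V) : V →ₗ[ℂ] V))
  have hT : ∀ x (j : Fin (K + 1)), T x j = ((2 : ℂ) ^ (j : ℕ)) • e ((L ^ (j : ℕ)) x) := by
    intro x j
    rfl
  have hTn : ∀ x, ‖T x‖ ^ 2 = ∑ j ∈ Finset.range (K + 1), (4 : ℝ) ^ j * ‖e ((L ^ j) x)‖ ^ 2 := by
    intro x
    rw [PiLp.norm_sq_eq_of_L2, ← Fin.sum_univ_eq_sum_range (fun j => (4 : ℝ) ^ j * ‖e ((L ^ j) x)‖ ^ 2)]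
    refine Finset.sum_congr rfl fun j _ => ?_
    rw [hT, norm_smul, mul_pow, norm_pow, ← pow_mul, mul_comm (j : ℕ) 2, pow_mul]
    norm_num
  have hinj : LinearMap.ker T = ⊥ := by
    rw [LinearMap.ker_eq_bot']
    intro x hx
    have h0 : T x 0 = 0 := by rw [hx]; rfl
    rw [hT] at h0
    simpa using h0
  -- orthonormal basis of the range
  let W := LinearMap.range T
  have hWr : Module.finrank ℂ W = 2 :=
    (LinearMap.finrank_range_of_inj (LinearMap.ker_eq_bot.1 hinj)).trans hV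
  let b := stdOrthonormalBasis ℂ W
  let i : W ≃ₗᵢ[ℂ] E2 := b.repr.trans (LinearIsometryEquiv.piLpCongrLeft 2 ℂ ℂ (finCongr hWr))
  let B : V ≃ₗ[ℂ] E2 := (LinearEquiv.ofInjective T (LinearMap.ker_eq_bot.1 hinj)).trans i.toLinearEquiv
  have hB : ∀ x, ‖B x‖ = ‖T x‖ := by
    intro x
    change ‖i _‖ = _
    rw [LinearIsometryEquiv.norm_map]
    rfl
  refine ⟨B.toContinuousLinearEquiv, fun x => ?_⟩
  change ‖B (L x)‖ ≤ 1 / 2 * ‖B x‖
  rw [hB, hB]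
  refine le_of_sq_le_sq ?_ (by positivity)
  rw [mul_pow, hTn, hTn]
  have hzero : ∀ x, (L ^ (K + 1)) x = 0 := by
    intro x
    rw [pow_succ, hL]; simp
  have h1 : ∑ j ∈ Finset.range (K + 1), (4 : ℝ) ^ j * ‖e ((L ^ j) (L x))‖ ^ 2
      = 1 / 4 * ∑ j ∈ Finset.range (K + 1), (4 : ℝ) ^ (j + 1) * ‖e ((L ^ (j + 1)) x)‖ ^ 2 := by
    rw [Finset.mul_sum]
    refine Finset.sum_congr rfl fun j _ => ?_
    have : (L ^ (j + 1)) x = (L ^ j) (L x) := by rw [pow_succ]; rfl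
    rw [this]; ring
  rw [h1]
  have h2 : ∑ j ∈ Finset.range (K + 1), (4 : ℝ) ^ (j + 1) * ‖e ((L ^ (j + 1)) x)‖ ^ 2
      ≤ ∑ j ∈ Finset.range (K + 1), (4 : ℝ) ^ j * ‖e ((L ^ j) x)‖ ^ 2 := by
    have h3 := Finset.sum_range_succ (fun j => (4 : ℝ) ^ j * ‖e ((L ^ j) x)‖ ^ 2) (K + 1)
    have h4 := Finset.sum_range_succ' (fun j => (4 : ℝ) ^ j * ‖e ((L ^ j) x)‖ ^ 2) (K + 1)
    rw [hzero x] at h3
    have h5 : 0 ≤ (4 : ℝ) ^ 0 * ‖e ((L ^ 0) x)‖ ^ 2 := by positivity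
    have h6 : (4 : ℝ) ^ (K + 1) * ‖e (0 : V)‖ ^ 2 = 0 := by simp
    rw [h6] at h3
    linarith
  nlinarith [h2]

end Nilp

end Vale.Agent.P267.H615
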