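import Vale.Agent.P267.H615.Adapt
import Mathlib.Analysis.SpecialFunctions.Pow.Real

/-!
# Adapted Hermitian norms for linear maps some power of which is a contraction
-/

open Set Filter
open scoped Topology

noncomputable section

namespace Vale.Agent.P267.H615

section

variable {V : Type*} [NormedAddCommGroup V] [NormedSpace ℂ V] [FiniteDimensional ℂ V]

/-- A Hermitian norm given by an injective linear map is the Euclidean norm in suitable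
coordinates. -/
theorem exists_equiv_norm (hV : Module.finrank ℂ V = 2) {k : ℕ}
    (T : V →ₗ[ℂ] PiLp 2 (fun _ : Fin k => E2)) (hinj : Function.Injective T) :
    ∃ A : V ≃L[ℂ] E2, ∀ x, ‖A x‖ = ‖T x‖ := by
  let W := LinearMap.range T
  have hWr : Module.finrank ℂ W = 2 := (LinearMap.finrank_range_of_inj hinj).trans hV
  let b := stdOrthonormalBasis ℂ W
  let i : W ≃ₗᵢ[ℂ] E2 := b.repr.trans (LinearIsometryEquiv.piLpCongrLeft 2 ℂ ℂ (finCongr hWr))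
  let B : V ≃ₗ[ℂ] E2 := (LinearEquiv.ofInjective T hinj).trans i.toLinearEquiv
  refine ⟨B.toContinuousLinearEquiv, fun x => ?_⟩
  change ‖i _‖ = _
  rw [LinearIsometryEquiv.norm_map]
  rfl

/-- If a power of `L` halves the norm, then `L` is a contraction for a Euclidean norm. -/
theorem exists_adapted_of_pow (hV : Module.finrank ℂ V = 2) (L : V →L[ℂ] V) {K : ℕ}
    (hL : ∀ x, ‖(L ^ K) x‖ ≤ 1 / 2 * ‖x‖) :
    ∃ (A : V ≃L[ℂ] E2) (θ : ℝ), 0 < θ ∧ θ < 1 ∧ ∀ x, ‖A (L x)‖ ≤ θ * ‖A x‖ := by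
  classical
  have hnt : Nontrivial V := Module.nontrivial_of_finrank_pos (R := ℂ) (by rw [hV]; norm_num)
  have hK : K ≠ 0 := by
    intro h0
    obtain ⟨x, hx⟩ := exists_ne (0 : V)
    have h1 := hL x
    rw [h0, pow_zero] at h1
    change ‖x‖ ≤ 1 / 2 * ‖x‖ at h1
    have := norm_pos_iff.2 hx
    linarith
  -- a Euclidean norm on `V`
  have e : V ≃L[ℂ] E2 :=
    (LinearEquiv.ofFinrankEq V E2 (by rw [hV]; simp)).toContinuousLinearEquiv
  set c1 : ℝ := ‖(e : V →L[ℂ] E2)‖ with hc1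
  set c2 : ℝ := ‖(e.symm : E2 →L[ℂ] V)‖ with hc2
  have hc1x : ∀ x, ‖e x‖ ≤ c1 * ‖x‖ := fun x => (e : V →L[ℂ] E2).le_opNorm x
  have hc2x : ∀ x, ‖x‖ ≤ c2 * ‖e x‖ := fun x => by
    simpa using (e.symm : E2 →L[ℂ] V).le_opNorm (e x)
  have hc1' : 0 ≤ c1 := norm_nonneg _
  have hc2' : 0 ≤ c2 := norm_nonneg _
  have hpow : ∀ m x, ‖(L ^ (K * m)) x‖ ≤ (1 / 2) ^ m * ‖x‖ := by
    intro m
    induction m with
    | zero => intro x; simp
    | succ m ih =>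
      intro x
      have h1 : (L ^ (K * (m + 1))) x = (L ^ K) ((L ^ (K * m)) x) := by
        rw [mul_add, mul_one, add_comm, pow_add]; rfl
      rw [h1]
      refine (hL _).trans ?_
      rw [pow_succ]
      nlinarith [ih x]
  obtain ⟨m, hm⟩ : ∃ m : ℕ, c1 * ((1 / 2) ^ m * c2) ≤ 1 / 2 := by
    have h1 : Tendsto (fun m : ℕ => c1 * (((1 : ℝ) / 2) ^ m * c2)) atTop (𝓝 (c1 * (0 * c2))) :=
      ((tendsto_pow_atTop_nhds_zero_of_lt_one (by norm_num) (by norm_num)).mul_const c2).const_mul c1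
    rw [zero_mul, mul_zero] at h1
    exact ((h1.eventually (gt_mem_nhds (by norm_num : (0 : ℝ) < 1 / 2))).exists).imp
      fun m hm => hm.le
  -- the exponent
  set M : ℕ := K * (m + 1) with hM
  have hM0 : M ≠ 0 := Nat.mul_ne_zero hK (Nat.succ_ne_zero m)
  have hLM : ∀ x, ‖e ((L ^ M) x)‖ ≤ 1 / 2 * ‖e x‖ := by
    intro x
    have h1 : ‖(L ^ M) x‖ ≤ (1 / 2) ^ m * ‖x‖ := by
      refine (hpow (m + 1) x).trans ?_
      rw [pow_succ]
      have : 0 ≤ (1 / 2 : ℝ) ^ m * ‖x‖ := by positivity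
      nlinarith
    calc ‖e ((L ^ M) x)‖ ≤ c1 * ‖(L ^ M) x‖ := hc1x _
      _ ≤ c1 * ((1 / 2) ^ m * (c2 * ‖e x‖)) := by
          refine mul_le_mul_of_nonneg_left (h1.trans ?_) hc1'
          exact mul_le_mul_of_nonneg_left (hc2x x) (by positivity)
      _ = c1 * ((1 / 2) ^ m * c2) * ‖e x‖ := by ring
      _ ≤ 1 / 2 * ‖e x‖ := mul_le_mul_of_nonneg_right hm (norm_nonneg _)
  -- the weight
  set s : ℝ := (4 : ℝ) ^ (((2 * M : ℕ) : ℝ)⁻¹) with hs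
  have hsM : s ^ (2 * M) = 4 :=
    Real.rpow_inv_natCast_pow (by norm_num) (Nat.mul_ne_zero two_ne_zero hM0)
  have hs0 : 0 < s := Real.rpow_pos_of_pos (by norm_num) _
  have hs1 : 1 < s := by
    by_contra h
    have : s ^ (2 * M) ≤ 1 := pow_le_one₀ hs0.le (not_lt.1 h)
    rw [hsM] at this
    norm_num at this
  let T : V →ₗ[ℂ] PiLp 2 (fun _ : Fin M => E2) :=
    (WithLp.linearEquiv 2 ℂ (∀ _ : Fin M, E2)).symm.toLinearMap ∘ₗ
      LinearMap.pi fun j => ((s : ℂ) ^ (j : ℕ)) • ((e : V →ₗ[ℂ] E2) ∘ₗ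
        ((L ^ (j : ℕ) : V →L[ℂ] V) : V →ₗ[ℂ] V))
  have hT : ∀ x (j : Fin M), T x j = ((s : ℂ) ^ (j : ℕ)) • e ((L ^ (j : ℕ)) x) := by
    intro x j
    rfl
  have hTn : ∀ x, ‖T x‖ ^ 2 = ∑ j ∈ Finset.range M, s ^ (2 * j) * ‖e ((L ^ j) x)‖ ^ 2 := by
    intro x
    rw [PiLp.norm_sq_eq_of_L2, ← Fin.sum_univ_eq_sum_range (fun j => s ^ (2 * j) * ‖e ((L ^ j) x)‖ ^ 2)]
    refine Finset.sum_congr rfl fun j _ => ?_
    rw [hT, norm_smul, mul_pow, norm_pow, ← pow_mul, mul_comm (j : ℕ) 2, Complex.norm_real,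
      Real.norm_of_nonneg hs0.le]
  have hinj : Function.Injective T := by
    rw [← LinearMap.ker_eq_bot, LinearMap.ker_eq_bot']
    intro x hx
    have h0 : T x ⟨0, Nat.pos_of_ne_zero hM0⟩ = 0 := by rw [hx]; rfl
    rw [hT] at h0
    simpa using h0
  obtain ⟨A, hA⟩ := exists_equiv_norm hV T hinj
  refine ⟨A, s⁻¹, inv_pos.2 hs0, inv_lt_one_of_one_lt₀ hs1, fun x => ?_⟩
  rw [hA, hA]
  have key : s ^ 2 * ‖T (L x)‖ ^ 2 ≤ ‖T x‖ ^ 2 := by
    rw [hTn, hTn]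
    have h1 : s ^ 2 * ∑ j ∈ Finset.range M, s ^ (2 * j) * ‖e ((L ^ j) (L x))‖ ^ 2
        = ∑ j ∈ Finset.range M, s ^ (2 * (j + 1)) * ‖e ((L ^ (j + 1)) x)‖ ^ 2 := by
      rw [Finset.mul_sum]
      refine Finset.sum_congr rfl fun j _ => ?_
      have : (L ^ (j + 1)) x = (L ^ j) (L x) := by rw [pow_succ]; rfl
      rw [this]; ring
    rw [h1]
    have h3 := Finset.sum_range_succ (fun j => s ^ (2 * j) * ‖e ((L ^ j) x)‖ ^ 2) M
    have h4 := Finset.sum_range_succ' (fun j => s ^ (2 * j) * ‖e ((L ^ j) x)‖ ^ 2) M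
    have h5 : s ^ (2 * M) * ‖e ((L ^ M) x)‖ ^ 2 ≤ ‖e x‖ ^ 2 := by
      rw [hsM]
      have h6 := hLM x
      have h7 := norm_nonneg (e ((L ^ M) x))
      nlinarith
    have h8 : s ^ (2 * 0) * ‖e ((L ^ 0) x)‖ ^ 2 = ‖e x‖ ^ 2 := by simp
    rw [h8] at h4
    linarith
  have h9 : (s * ‖T (L x)‖) ^ 2 ≤ ‖T x‖ ^ 2 := by rw [mul_pow]; exact key
  have h10 : s * ‖T (L x)‖ ≤ ‖T x‖ := le_of_sq_le_sq h9 (norm_nonneg _)
  rw [inv_mul_eq_div, le_div_iff₀ hs0]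
  linarith

end

end Vale.Agent.P267.H615
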